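import Vale.Agent.P224.R2.H176.T0.Alg
import Vale.Agent.P224.R2.H176.T0.CI4
import Vale.Agent.P224.R2.H176.T0.CII4

/-!
The resources as a property of the coefficients, and the resource at the point `(1/20, 1/45)`.
-/

namespace Vale.Agent.P224.R2.H176

/-- the resource with the coefficients `α`, `β`, the far constant `t` and the near constant `k` -/
def Res (α β t k : ℝ) : Prop :=
  ∀ (M P Q U : Fin 5 → Fin 5 → ℝ) (d b X : Fin 5 → ℝ), Mom M P Q U d b X →
    0 ≤ ∑ j, d j * b j → t ≤ Fq α β d b ∨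
      ∃ σ : Equiv.Perm (Fin 5), k * Et (fun j => d (σ j)) (fun j => b (σ j)) ≤ Fq α β d b

/-- the resources of the trapezoid -/
theorem res_trap {a l : ℝ} (a0 : 0 ≤ a) (a1 : a ≤ 1) (l0 : 0 ≤ l) (l1 : l ≤ 1) :
    Res (a / 10) (l * Bq a) (min (tq a l) ((1 - l) * Bq a * (8 / 27))) (kq a l) :=
  fun _ _ _ _ _ _ _ h hor => h.main hor a0 a1 l0 l1

/-- the value with the opposite normal -/
theorem Mom.opp {M P Q U : Fin 5 → Fin 5 → ℝ} {d b X : Fin 5 → ℝ} (h : Mom M P Q U d b X)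
    (hor : 0 ≤ ∑ j, d j * b j) {σ : Equiv.Perm (Fin 5)} (s1 : b (σ 1) ≤ b (σ 0))
    (s2 : b (σ 2) ≤ b (σ 1)) (s3 : b (σ 3) ≤ b (σ 2)) (s4 : b (σ 4) ≤ b (σ 3))
    (hs : 0 ≤ b (σ 2)) {a β : ℝ} (a0 : 0 ≤ a) (a1 : a ≤ 1) (b0 : 0 ≤ β) :
    (Bq a - β) * (8 / 27) ≤ Fq (a / 10) β d b := by
  have h' := (h.perm σ).neg.perm (Fin.revPerm)
  have r0 : Fin.revPerm (0 : Fin 5) = 4 := by decide
  have r1 : Fin.revPerm (1 : Fin 5) = 3 := by decide
  have r2 : Fin.revPerm (2 : Fin 5) = 2 := by decide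
  have r3 : Fin.revPerm (3 : Fin 5) = 1 := by decide
  have r4 : Fin.revPerm (4 : Fin 5) = 0 := by decide
  have h2 := h'.sorted (by simp only [r0, r1]; linarith) (by simp only [r2, r1]; linarith)
    (by simp only [r3, r2]; linarith) (by simp only [r3, r4]; linarith)
    (by simp only [r2]; linarith) a0 a1 (zero_le_one' ℝ) le_rfl
  have h3 := h'.Et_nonneg
  have e1 : Fq (a / 10) (1 * Bq a) (fun k => d (σ (Fin.revPerm k)))
      (fun k => -b (σ (Fin.revPerm k))) = Fq (a / 10) (1 * Bq a) d (fun k => -b k) :=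
    (Fq_perm _ _ (fun k => d (σ k)) (fun k => -b (σ k)) Fin.revPerm).trans
      (Fq_perm _ _ d (fun k => -b k) σ)
  rw [e1] at h2
  have ht : 0 ≤ tq a 1 := by unfold tq; norm_num
  have hk : 0 ≤ kq a 1 := by
    unfold kq
    have : 0 ≤ 1 - a := by linarith
    positivity
  have h4 : 0 ≤ Fq (a / 10) (1 * Bq a) d (fun k => -b k) := by
    rcases h2 with h2 | h2
    · exact le_trans ht h2
    · exact le_trans (mul_nonneg hk h3) h2
  have hB : 0 ≤ Bq a := by
    unfold Bq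
    have : 0 ≤ 1 - a := by linarith
    positivity
  rw [Fq_eq] at h4 ⊢
  have e2 : ∑ j, (-b j) ^ 2 = ∑ j, b j ^ 2 := Finset.sum_congr rfl fun j _ => by ring
  have e3 : ∑ j, d j * -b j = -∑ j, d j * b j := by
    rw [← Finset.sum_neg_distrib]
    exact Finset.sum_congr rfl fun j _ => by ring
  rw [e2, e3] at h4
  have h5 : 0 ≤ (Bq a + β) * ∑ j, d j * b j := mul_nonneg (by linarith) hor
  linarith

/-- the resource at the point `(1/20, 1/45)` -/
theorem res4 : Res (1 / 20) (1 / 45) (1 / 4500) (1 / 16) := by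
  intro M P Q U d b X h hor
  obtain ⟨σ, s1, s2, s3, s4⟩ := exists_sort b
  rcases le_total (b (σ 2)) 0 with hs | hs
  · have hp := h.perm σ
    have hP := hp.top
    rcases le_total (b (σ 2)) (-3 / 20) with h6 | h6
    · right
      refine ⟨σ, ?_⟩
      have := hp.certI4 s1 s3 s4 hP h6
      rwa [Fq_perm] at this
    · left
      have := hp.certII4 s1 s2 s3 s4 hs hP h6
      rwa [Fq_perm] at this
  · left
    have := h.opp hor s1 s2 s3 s4 hs (a := 1 / 2) (β := 1 / 45) (by norm_num) (by norm_num)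
      (by norm_num)
    have e : (1 / 2 : ℝ) / 10 = 1 / 20 := by norm_num
    rw [e] at this
    refine le_trans ?_ this
    unfold Bq
    norm_num

end Vale.Agent.P224.R2.H176
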