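import Vale.Agent.P224.R2.H176.T0.CI0
import Vale.Agent.P224.R2.H176.T0.CII0
import Vale.Agent.P224.R2.H176.T0.CI1
import Vale.Agent.P224.R2.H176.T0.CII1
import Vale.Agent.P224.R2.H176.T0.CI2
import Vale.Agent.P224.R2.H176.T0.CII2
import Vale.Agent.P224.R2.H176.T0.CI3
import Vale.Agent.P224.R2.H176.T0.CII3

/-!
The algebraic form of the stable resource in dimension three: the excess of a one point law is
bounded below by a positive constant or by the mean square distance to a Clifford normal.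
-/

namespace Vale.Agent.P224.R2.H176

variable {M P Q U : Fin 5 → Fin 5 → ℝ} {d b X : Fin 5 → ℝ}

/-- a permutation of the coordinates -/
theorem Mom.perm (h : Mom M P Q U d b X) (σ : Equiv.Perm (Fin 5)) :
    Mom (fun j k => M (σ j) (σ k)) (fun j k => P (σ j) (σ k)) (fun j k => Q (σ j) (σ k))
      (fun j k => U (σ j) (σ k)) (fun k => d (σ k)) (fun k => b (σ k)) (fun k => X (σ k)) := by
  have e : ∀ f : Fin 5 → ℝ, f (σ 0) + f (σ 1) + f (σ 2) + f (σ 3) + f (σ 4)
      = f 0 + f 1 + f 2 + f 3 + f 4 := by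
    intro f
    have := Equiv.sum_comp σ f
    simpa only [Fin.sum_univ_five] using this
  refine ⟨fun j k => h.Ms _ _, fun j k => h.Qs _ _, fun j => h.Qd _, fun j => ?_, fun j => ?_,
    fun k => ?_, fun k => ?_, fun j => ?_, fun j => ?_, ?_, fun j => h.q _, fun j k hjk => ?_,
    fun k => h.s2 _, fun j k => h.cc _ _, fun j k a b' c => h.pair _ _ a b' c, fun a c => ?_⟩
  · exact (e fun k => M (σ j) k).trans (h.hX _)
  · exact (e fun k => P (σ j) k).trans (h.hP _)
  · exact (e fun j => P j (σ k)).trans (h.hD _)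
  · exact (e fun j => U j (σ k)).trans (h.hU _)
  · exact (e fun k => U (σ j) k).trans (h.hV _)
  · exact (e fun k => Q (σ j) k).trans (h.hQ _)
  · exact (e X).trans h.mass
  · exact h.s1 _ _ fun h' => hjk (σ.injective h')
  · have h1 := h.diag (fun j => a (σ.symm j)) (fun j => c (σ.symm j))
    rw [← Equiv.sum_comp σ] at h1
    have h2 : ∀ j, ∑ k, (a (σ.symm (σ j)) * a (σ.symm k) * M (σ j) k
        + 2 * a (σ.symm (σ j)) * c (σ.symm k) * U (σ j) k
        + c (σ.symm (σ j)) * c (σ.symm k) * Q (σ j) k)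
        = ∑ k, (a j * a k * M (σ j) (σ k) + 2 * a j * c k * U (σ j) (σ k)
        + c j * c k * Q (σ j) (σ k)) := by
      intro j
      rw [← Equiv.sum_comp σ]
      refine Finset.sum_congr rfl fun k _ => ?_
      simp only [Equiv.symm_apply_apply]
    simp only [h2] at h1
    exact h1

/-- the opposite normal -/
theorem Mom.neg (h : Mom M P Q U d b X) :
    Mom M P Q (fun j k => -U j k) d (fun k => -b k) X := by
  refine ⟨h.Ms, h.Qs, h.Qd, h.hX, h.hP, h.hD, fun k => ?_, fun j => ?_, h.hQ, h.mass, h.q, h.s1,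
    h.s2, fun j k => ?_, fun j k a b' c => ?_, fun a c => ?_⟩
  · have := h.hU k
    linear_combination -this
  · have := h.hV j
    linear_combination -this
  · have := h.cc j k
    linear_combination -this
  · have := h.pair j k (-a) b' c
    linear_combination this
  · have := h.diag (fun j => -a j) c
    refine this.trans (le_of_eq (Finset.sum_congr rfl fun j _ => Finset.sum_congr rfl
      fun k _ => ?_))
    ring

/-- squares of linear forms -/
theorem Mom.sq1 (h : Mom M P Q U d b X) (j : Fin 5) (t : ℝ) :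
    0 ≤ d j + 2 * t * b j + t ^ 2 * X j := by
  have h0 := h.pair 0 j t 1 0
  have h1 := h.pair 1 j t 1 0
  have h2 := h.pair 2 j t 1 0
  have h3 := h.pair 3 j t 1 0
  have h4 := h.pair 4 j t 1 0
  have e1 := h.hD j
  have e2 := h.hU j
  have e3 := h.hX j
  rw [h.Ms j 0, h.Ms j 1, h.Ms j 2, h.Ms j 3, h.Ms j 4] at e3
  rw [← e1, ← e2, ← e3]
  linear_combination h0 + h1 + h2 + h3 + h4

/-- the top two eigenvalues -/
theorem Mom.top (h : Mom M P Q U d b X) : b 0 + b 1 ≤ 2 / 3 := by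
  have h0 := h.sq1 0 (-2)
  have h1 := h.sq1 1 (-2)
  have h2 := h.sq1 2 1
  have h3 := h.sq1 3 1
  have h4 := h.sq1 4 1
  have q0 := h.q 0
  have q1 := h.q 1
  have q2 := h.q 2
  have q3 := h.q 3
  have q4 := h.q 4
  have e1 := h.dd4
  have e2 := h.db4
  linarith

theorem Mom.Et_nonneg (h : Mom M P Q U d b X) : 0 ≤ Et d b := by
  have h0 := h.sq1 0 (-2)
  have h1 := h.sq1 1 (-2)
  have h2 := h.sq1 2 1
  have h3 := h.sq1 3 1
  have h4 := h.sq1 4 1
  have q0 := h.q 0
  have q1 := h.q 1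
  have q2 := h.q 2
  have q3 := h.q 3
  have q4 := h.q 4
  have e1 := h.dd4
  have e2 := h.db4
  unfold Et
  linarith

/-- the upper bound of `β` -/
noncomputable def Bq (a : ℝ) : ℝ := (1 - a) / 35 + a / 50

/-- the constant of the far case -/
noncomputable def tq (a l : ℝ) : ℝ := (1 - l) * ((1 - a) / 250 + a / 400) + l / 8000

/-- the constant of the near case -/
noncomputable def kq (a l : ℝ) : ℝ :=
  (1 - l) * ((1 - a) / 20 + a / 30) + l * ((1 - a) / 50 + a / 70)

lemma Fq_aff (a l : ℝ) (d b : Fin 5 → ℝ) :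
    Fq (a / 10) (l * Bq a) d b = (1 - l) * ((1 - a) * Fq 0 0 d b + a * Fq (1 / 10) 0 d b)
      + l * ((1 - a) * Fq 0 (1 / 35) d b + a * Fq (1 / 10) (1 / 50) d b) := by
  unfold Fq Bq
  ring

lemma Fq_eq (α β : ℝ) (d b : Fin 5 → ℝ) :
    Fq α β d b = 10 / 27 - 14 / 27 * α - 8 / 27 * β + α / 2 * ∑ j, d j ^ 2 - ∑ j, b j ^ 2
      + β * ∑ j, d j * b j := by
  unfold Fq
  simp only [Fin.sum_univ_five]

lemma Fq_perm (α β : ℝ) (d b : Fin 5 → ℝ) (σ : Equiv.Perm (Fin 5)) :
    Fq α β (fun j => d (σ j)) (fun j => b (σ j)) = Fq α β d b := by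
  rw [Fq_eq, Fq_eq, Equiv.sum_comp σ (fun j => b j ^ 2), Equiv.sum_comp σ (fun j => d j * b j),
    Equiv.sum_comp σ (fun j => d j ^ 2)]

/-- the sorted case -/
theorem Mom.sorted (h : Mom M P Q U d b X) (h01 : b 1 ≤ b 0) (h12 : b 2 ≤ b 1) (h23 : b 3 ≤ b 2)
    (h34 : b 4 ≤ b 3) (h2 : b 2 ≤ 0) {a l : ℝ} (a0 : 0 ≤ a) (a1 : a ≤ 1) (l0 : 0 ≤ l)
    (l1 : l ≤ 1) :
    tq a l ≤ Fq (a / 10) (l * Bq a) d b ∨ kq a l * Et d b ≤ Fq (a / 10) (l * Bq a) d b := by
  have hP := h.top
  have w0 : 0 ≤ (1 - l) * (1 - a) := mul_nonneg (by linarith) (by linarith)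
  have w1 : 0 ≤ (1 - l) * a := mul_nonneg (by linarith) a0
  have w2 : 0 ≤ l * (1 - a) := mul_nonneg l0 (by linarith)
  have w3 : 0 ≤ l * a := mul_nonneg l0 a0
  rw [Fq_aff]
  rcases le_total (b 2) (-1 / 10) with hs | hs
  · right
    have c0 := mul_le_mul_of_nonneg_left (h.certI0 h01 h23 h34 hP hs) w0
    have c1 := mul_le_mul_of_nonneg_left (h.certI2 h01 h23 h34 hP hs) w1
    have c2 := mul_le_mul_of_nonneg_left (h.certI1 h01 h23 h34 hP hs) w2
    have c3 := mul_le_mul_of_nonneg_left (h.certI3 h01 h23 h34 hP hs) w3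
    unfold kq
    linarith
  · left
    have c0 := mul_le_mul_of_nonneg_left (h.certII0 h01 h12 h23 h34 h2 hP hs) w0
    have c1 := mul_le_mul_of_nonneg_left (h.certII2 h01 h12 h23 h34 h2 hP hs) w1
    have c2 := mul_le_mul_of_nonneg_left (h.certII1 h01 h12 h23 h34 h2 hP hs) w2
    have c3 := mul_le_mul_of_nonneg_left (h.certII3 h01 h12 h23 h34 h2 hP hs) w3
    unfold tq
    linarith

/-- sorting -/
lemma exists_sort (b : Fin 5 → ℝ) : ∃ σ : Equiv.Perm (Fin 5), b (σ 1) ≤ b (σ 0) ∧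
    b (σ 2) ≤ b (σ 1) ∧ b (σ 3) ≤ b (σ 2) ∧ b (σ 4) ≤ b (σ 3) := by
  have h := Tuple.monotone_sort (fun j => -b j)
  refine ⟨Tuple.sort (fun j => -b j), ?_, ?_, ?_, ?_⟩
  · have := h (show (0 : Fin 5) ≤ 1 by decide)
    simp only [Function.comp_apply] at this
    linarith
  · have := h (show (1 : Fin 5) ≤ 2 by decide)
    simp only [Function.comp_apply] at this
    linarith
  · have := h (show (2 : Fin 5) ≤ 3 by decide)
    simp only [Function.comp_apply] at this
    linarith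
  · have := h (show (3 : Fin 5) ≤ 4 by decide)
    simp only [Function.comp_apply] at this
    linarith

/-- **The stable resource in dimension three**, algebraic form. -/
theorem Mom.main (h : Mom M P Q U d b X) (hor : 0 ≤ ∑ j, d j * b j) {a l : ℝ} (a0 : 0 ≤ a)
    (a1 : a ≤ 1) (l0 : 0 ≤ l) (l1 : l ≤ 1) :
    min (tq a l) ((1 - l) * Bq a * (8 / 27)) ≤ Fq (a / 10) (l * Bq a) d b ∨
      ∃ σ : Equiv.Perm (Fin 5), kq a l * Et (fun j => d (σ j)) (fun j => b (σ j))
        ≤ Fq (a / 10) (l * Bq a) d b := by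
  obtain ⟨σ, s1, s2, s3, s4⟩ := exists_sort b
  rcases le_total (b (σ 2)) 0 with hs | hs
  · have := (h.perm σ).sorted s1 s2 s3 s4 hs a0 a1 l0 l1
    rw [Fq_perm] at this
    rcases this with h2 | h2
    · exact Or.inl ((min_le_left _ _).trans h2)
    · exact Or.inr ⟨σ, h2⟩
  · left
    refine (min_le_right _ _).trans ?_
    have h' := (h.perm σ).neg.perm (Fin.revPerm)
    have r0 : Fin.revPerm (0 : Fin 5) = 4 := by decide
    have r1 : Fin.revPerm (1 : Fin 5) = 3 := by decide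
    have r2 : Fin.revPerm (2 : Fin 5) = 2 := by decide
    have r3 : Fin.revPerm (3 : Fin 5) = 1 := by decide
    have r4 : Fin.revPerm (4 : Fin 5) = 0 := by decide
    have h2 := h'.sorted (by simp only [r0, r1]; linarith) (by simp only [r2, r1]; linarith)
      (by simp only [r3, r2]; linarith) (by simp only [r3, r4]; linarith)
      (by simp only [r2]; linarith) a0 a1 (zero_le_one' ℝ) le_rfl
    have h3 := h'.Et_nonneg
    have e1 : Fq (a / 10) (1 * Bq a) (fun k => d (σ (Fin.revPerm k)))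
        (fun k => -b (σ (Fin.revPerm k))) = Fq (a / 10) (1 * Bq a) d (fun k => -b k) :=
      (Fq_perm _ _ (fun k => d (σ k)) (fun k => -b (σ k)) Fin.revPerm).trans
        (Fq_perm _ _ d (fun k => -b k) σ)
    rw [e1] at h2
    have ht : 0 ≤ tq a 1 := by unfold tq; norm_num
    have hk : 0 ≤ kq a 1 := by
      unfold kq
      have : 0 ≤ 1 - a := by linarith
      positivity
    have h4 : 0 ≤ Fq (a / 10) (1 * Bq a) d (fun k => -b k) := by
      rcases h2 with h2 | h2
      · exact le_trans ht h2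
      · exact le_trans (mul_nonneg hk h3) h2
    have hB : 0 ≤ Bq a := by
      unfold Bq
      have : 0 ≤ 1 - a := by linarith
      positivity
    rw [Fq_eq] at h4 ⊢
    have e2 : ∑ j, (-b j) ^ 2 = ∑ j, b j ^ 2 := Finset.sum_congr rfl fun j _ => by ring
    have e3 : ∑ j, d j * -b j = -∑ j, d j * b j := by
      rw [← Finset.sum_neg_distrib]
      exact Finset.sum_congr rfl fun j _ => by ring
    rw [e2, e3] at h4
    have h5 : 0 ≤ ((1 + l) * Bq a) * ∑ j, d j * b j :=
      mul_nonneg (mul_nonneg (by linarith) hB) hor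
    linarith

end Vale.Agent.P224.R2.H176
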