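import Vale.Agent.P224.R2.H176.T0.Alg4
import Vale.Agent.P224.R2.H176.T0.CI5
import Vale.Agent.P224.R2.H176.T0.CII5

/-!
The resource at the point `(0, 1/36)`.
-/

namespace Vale.Agent.P224.R2.H176

/-- the resource at the point `(0, 1/36)` -/
theorem res5 : Res 0 (1 / 36) (1 / 4260) (1 / 20) := by
  intro M P Q U d b X h hor
  obtain ⟨σ, s1, s2, s3, s4⟩ := exists_sort b
  rcases le_total (b (σ 2)) 0 with hs | hs
  · have hp := h.perm σ
    have hP := hp.top
    rcases le_total (b (σ 2)) (-1 / 8) with h6 | h6
    · right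
      refine ⟨σ, ?_⟩
      have := hp.certI5 s1 s3 s4 hP h6
      rwa [Fq_perm] at this
    · left
      have := hp.certII5 s1 s2 s3 s4 hs hP h6
      rw [Fq_perm] at this
      linarith
  · left
    have := h.opp hor s1 s2 s3 s4 hs (a := 0) (β := 1 / 36) (by norm_num) (by norm_num)
      (by norm_num)
    have e : (0 : ℝ) / 10 = 0 := by norm_num
    rw [e] at this
    refine le_trans ?_ this
    unfold Bq
    norm_num

end Vale.Agent.P224.R2.H176
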