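import Mathlib

/-!
The moments of order at most four of a one point law of a minimal hypersurface of `S⁴`
(`n` is `√2` times the unit normal), as an abstract structure.
-/

namespace Vale.Agent.P224.R2.H176

/-- the moments: `M j k = E x_j² x_k²`, `P j k = E x_j² n_k²`, `Q j k = E x_j x_k n_j n_k`,
`U j k = E x_j² x_k n_k`, `d k = E n_k²`, `b k = E x_k n_k`, `X k = E x_k²` -/
structure Mom (M P Q U : Fin 5 → Fin 5 → ℝ) (d b X : Fin 5 → ℝ) : Prop where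
  Ms : ∀ j k, M j k = M k j
  Qs : ∀ j k, Q j k = Q k j
  Qd : ∀ j, Q j j = P j j
  hX : ∀ j, M j 0 + M j 1 + M j 2 + M j 3 + M j 4 = X j
  hP : ∀ j, P j 0 + P j 1 + P j 2 + P j 3 + P j 4 = 2 * X j
  hD : ∀ k, P 0 k + P 1 k + P 2 k + P 3 k + P 4 k = d k
  hU : ∀ k, U 0 k + U 1 k + U 2 k + U 3 k + U 4 k = b k
  hV : ∀ j, U j 0 + U j 1 + U j 2 + U j 3 + U j 4 = 0
  hQ : ∀ j, Q j 0 + Q j 1 + Q j 2 + Q j 3 + Q j 4 = 0
  mass : X 0 + X 1 + X 2 + X 3 + X 4 = 1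
  q : ∀ j, 4 * X j + d j / 2 = 1
  s1 : ∀ j k, j ≠ k → X j - P j k / 2 - Q j k - 6 * M j k = 0
  s2 : ∀ k, X k - P k k / 2 - 2 * M k k = 0
  cc : ∀ j k, b j - b k + 5 * (U j k - U k j) = 0
  pair : ∀ j k, ∀ a b' c : ℝ, 0 ≤ a ^ 2 * M j k + 2 * a * b' * U j k + 2 * a * c * U k j
    + b' ^ 2 * P j k + 2 * b' * c * Q j k + c ^ 2 * P k j
  diag : ∀ a c : Fin 5 → ℝ, 0 ≤ ∑ j, ∑ k, (a j * a k * M j k + 2 * a j * c k * U j k
    + c j * c k * Q j k)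

variable {M P Q U : Fin 5 → Fin 5 → ℝ} {d b X : Fin 5 → ℝ}

/-- the resource (`2 / a₂` times the excess), with `α = a₁ / a₂`, `β = a₃ / (√2 a₂)` -/
noncomputable def Fq (α β : ℝ) (d b : Fin 5 → ℝ) : ℝ :=
  10 / 27 - 14 / 27 * α - 8 / 27 * β
    + α / 2 * (d 0 ^ 2 + d 1 ^ 2 + d 2 ^ 2 + d 3 ^ 2 + d 4 ^ 2)
    - (b 0 ^ 2 + b 1 ^ 2 + b 2 ^ 2 + b 3 ^ 2 + b 4 ^ 2)
    + β * (d 0 * b 0 + d 1 * b 1 + d 2 * b 2 + d 3 * b 3 + d 4 * b 4)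

/-- the mean square distance of the normal to the Clifford normal of the blocks `{0, 1}`,
`{2, 3, 4}` -/
noncomputable def Et (d b : Fin 5 → ℝ) : ℝ := 9 / 4 - 3 * (b 0 + b 1) - 3 / 16 * (d 0 + d 1)

/-- positivity against a positive definite `3 × 3` matrix -/
theorem Mom.psd3 (h : Mom M P Q U d b X) (j k : Fin 5) {a11 a12 a13 a22 a23 a33 : ℝ}
    (h1 : 0 < a11) (h2 : 0 < a11 * a22 - a12 ^ 2)
    (h3 : 0 < a11 * a22 * a33 + 2 * a12 * a13 * a23 - a11 * a23 ^ 2 - a22 * a13 ^ 2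
      - a33 * a12 ^ 2) :
    0 ≤ a11 * M j k + 2 * a12 * U j k + 2 * a13 * U k j + a22 * P j k + 2 * a23 * Q j k
      + a33 * P k j := by
  set D := a11 * a22 - a12 ^ 2 with hD
  set T := a11 * a22 * a33 + 2 * a12 * a13 * a23 - a11 * a23 ^ 2 - a22 * a13 ^ 2
      - a33 * a12 ^ 2 with hT
  have e1 := h.pair j k a11 a12 a13
  have e2 := h.pair j k 0 D (a11 * a23 - a12 * a13)
  have e3 := h.pair j k 0 0 1
  have hTD : a11 * T = D * (a11 * a33 - a13 ^ 2) - (a11 * a23 - a12 * a13) ^ 2 := by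
    rw [hT, hD]; ring
  have key : a11 * D * (a11 * M j k + 2 * a12 * U j k + 2 * a13 * U k j + a22 * P j k
      + 2 * a23 * Q j k + a33 * P k j)
      = D * (a11 ^ 2 * M j k + 2 * a11 * a12 * U j k + 2 * a11 * a13 * U k j
        + a12 ^ 2 * P j k + 2 * a12 * a13 * Q j k + a13 ^ 2 * P k j)
      + (0 ^ 2 * M j k + 2 * 0 * D * U j k + 2 * 0 * (a11 * a23 - a12 * a13) * U k j
        + D ^ 2 * P j k + 2 * D * (a11 * a23 - a12 * a13) * Q j k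
        + (a11 * a23 - a12 * a13) ^ 2 * P k j)
      + (a11 * T) * (0 ^ 2 * M j k + 2 * 0 * 0 * U j k + 2 * 0 * 1 * U k j
        + 0 ^ 2 * P j k + 2 * 0 * 1 * Q j k + 1 ^ 2 * P k j) := by
    rw [hTD, hD]; ring
  have hpos : 0 < a11 * D := mul_pos h1 h2
  have hr : 0 ≤ a11 * D * (a11 * M j k + 2 * a12 * U j k + 2 * a13 * U k j + a22 * P j k
      + 2 * a23 * Q j k + a33 * P k j) := by
    rw [key]
    exact add_nonneg (add_nonneg (mul_nonneg h2.le e1) e2)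
      (mul_nonneg (mul_pos h1 h3).le e3)
  exact nonneg_of_mul_nonneg_right hr hpos

/-- positivity against a positive definite form on the span of two vectors -/
theorem Mom.psd2 (h : Mom M P Q U d b X) (j k : Fin 5) {p q r u1 u2 u3 w1 w2 w3 : ℝ}
    (h1 : 0 < p) (h2 : 0 < p * r - q ^ 2) :
    0 ≤ (p * u1 ^ 2 + 2 * q * u1 * w1 + r * w1 ^ 2) * M j k
      + 2 * (p * u1 * u2 + q * (u1 * w2 + u2 * w1) + r * w1 * w2) * U j k
      + 2 * (p * u1 * u3 + q * (u1 * w3 + u3 * w1) + r * w1 * w3) * U k j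
      + (p * u2 ^ 2 + 2 * q * u2 * w2 + r * w2 ^ 2) * P j k
      + 2 * (p * u2 * u3 + q * (u2 * w3 + u3 * w2) + r * w2 * w3) * Q j k
      + (p * u3 ^ 2 + 2 * q * u3 * w3 + r * w3 ^ 2) * P k j := by
  have e1 := h.pair j k (p * u1 + q * w1) (p * u2 + q * w2) (p * u3 + q * w3)
  have e2 := h.pair j k w1 w2 w3
  have hr : 0 ≤ p * ((p * u1 ^ 2 + 2 * q * u1 * w1 + r * w1 ^ 2) * M j k
      + 2 * (p * u1 * u2 + q * (u1 * w2 + u2 * w1) + r * w1 * w2) * U j k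
      + 2 * (p * u1 * u3 + q * (u1 * w3 + u3 * w1) + r * w1 * w3) * U k j
      + (p * u2 ^ 2 + 2 * q * u2 * w2 + r * w2 ^ 2) * P j k
      + 2 * (p * u2 * u3 + q * (u2 * w3 + u3 * w2) + r * w2 * w3) * Q j k
      + (p * u3 ^ 2 + 2 * q * u3 * w3 + r * w3 ^ 2) * P k j) := by
    have e3 := mul_nonneg h2.le e2
    linear_combination e1 + e3
  exact nonneg_of_mul_nonneg_right hr h1

/-- the diagonal form, expanded -/
theorem Mom.dg (h : Mom M P Q U d b X) (a0 a1 a2 a3 a4 c0 c1 c2 c3 : ℝ) :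
    0 ≤ a0 * a0 * M 0 0 + a1 * a1 * M 1 1 + a2 * a2 * M 2 2 + a3 * a3 * M 3 3 + a4 * a4 * M 4 4
      + 2 * (a0 * a1 * M 0 1 + a0 * a2 * M 0 2 + a0 * a3 * M 0 3 + a0 * a4 * M 0 4
        + a1 * a2 * M 1 2 + a1 * a3 * M 1 3 + a1 * a4 * M 1 4 + a2 * a3 * M 2 3
        + a2 * a4 * M 2 4 + a3 * a4 * M 3 4)
      + 2 * (a0 * (c0 * U 0 0 + c1 * U 0 1 + c2 * U 0 2 + c3 * U 0 3)
        + a1 * (c0 * U 1 0 + c1 * U 1 1 + c2 * U 1 2 + c3 * U 1 3)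
        + a2 * (c0 * U 2 0 + c1 * U 2 1 + c2 * U 2 2 + c3 * U 2 3)
        + a3 * (c0 * U 3 0 + c1 * U 3 1 + c2 * U 3 2 + c3 * U 3 3)
        + a4 * (c0 * U 4 0 + c1 * U 4 1 + c2 * U 4 2 + c3 * U 4 3))
      + (c0 * c0 * P 0 0 + c1 * c1 * P 1 1 + c2 * c2 * P 2 2 + c3 * c3 * P 3 3)
      + 2 * (c0 * c1 * Q 0 1 + c0 * c2 * Q 0 2 + c0 * c3 * Q 0 3 + c1 * c2 * Q 1 2
        + c1 * c3 * Q 1 3 + c2 * c3 * Q 2 3) := by
  have h0 := h.diag ![a0, a1, a2, a3, a4] ![c0, c1, c2, c3, 0]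
  simp only [Fin.sum_univ_five, Matrix.cons_val_zero, Matrix.cons_val_one, Matrix.cons_val] at h0
  rw [h.Ms 1 0, h.Ms 2 0, h.Ms 3 0, h.Ms 4 0, h.Ms 2 1, h.Ms 3 1, h.Ms 4 1, h.Ms 3 2, h.Ms 4 2,
    h.Ms 4 3, h.Qs 1 0, h.Qs 2 0, h.Qs 3 0, h.Qs 2 1, h.Qs 3 1, h.Qs 3 2, h.Qd 0, h.Qd 1, h.Qd 2,
    h.Qd 3] at h0
  linear_combination h0

end Vale.Agent.P224.R2.H176
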