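import Vale.Agent.P224.R2.H470.Gram
import Vale.Agent.P224.R2.H176.T0.Mom

/-!
The moments of a minimal hypersurface of the four dimensional sphere form a one point law.
-/

namespace Vale.Agent.P224.R2.H176

open MeasureTheory Module Function Set Vale.Agent.P224.R2.H470
open scoped RealInnerProductSpace Topology ContDiff

set_option linter.unusedSectionVars false

section

variable {X : Type*} {E : Type*} [NormedAddCommGroup E] [InnerProductSpace ℝ E]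
  [TopologicalSpace X] [MeasurableSpace X] [CompactSpace X] [BorelSpace X] {μ : Measure X}
  [IsFiniteMeasure μ] {p n : X → E}

/-- the mean -/
noncomputable def EL (μ : Measure X) (f : X → ℝ) : ℝ := (μ.real univ)⁻¹ * ∫ x, f x ∂μ

lemma EL_add {f g : X → ℝ} (hf : Continuous f) (hg : Continuous g) :
    EL μ (fun x => f x + g x) = EL μ f + EL μ g := by
  unfold EL
  rw [integral_add (int_of_cont hf) (int_of_cont hg), mul_add]

lemma EL_sub {f g : X → ℝ} (hf : Continuous f) (hg : Continuous g) :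
    EL μ (fun x => f x - g x) = EL μ f - EL μ g := by
  unfold EL
  rw [integral_sub (int_of_cont hf) (int_of_cont hg), mul_sub]

lemma EL_smul (c : ℝ) (f : X → ℝ) : EL μ (fun x => c * f x) = c * EL μ f := by
  unfold EL
  rw [integral_const_mul]
  ring

lemma EL_const (hA : 0 < μ.real univ) (c : ℝ) : EL μ (fun _ => c) = c := by
  unfold EL
  rw [integral_const, smul_eq_mul, ← mul_assoc, inv_mul_cancel₀ hA.ne', one_mul]

lemma EL_nonneg {f : X → ℝ} (h : ∀ x, 0 ≤ f x) : 0 ≤ EL μ f :=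
  mul_nonneg (inv_nonneg.2 measureReal_nonneg) (integral_nonneg h)

lemma EL_congr {f g : X → ℝ} (h : ∀ x, f x = g x) : EL μ f = EL μ g := by
  have : f = g := funext h
  rw [this]

lemma EL_c3 {f1 f2 f3 : X → ℝ} (h1 : Continuous f1) (h2 : Continuous f2) (h3 : Continuous f3)
    (c1 c2 c3 : ℝ) : EL μ (fun x => c1 * f1 x + c2 * f2 x + c3 * f3 x)
      = c1 * EL μ f1 + c2 * EL μ f2 + c3 * EL μ f3 := by
  rw [EL_add (by fun_prop) (by fun_prop), EL_add (by fun_prop) (by fun_prop), EL_smul, EL_smul,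
    EL_smul]

lemma EL_c4 {f1 f2 f3 f4 : X → ℝ} (h1 : Continuous f1) (h2 : Continuous f2) (h3 : Continuous f3)
    (h4 : Continuous f4) (c1 c2 c3 c4 : ℝ) :
    EL μ (fun x => c1 * f1 x + c2 * f2 x + c3 * f3 x + c4 * f4 x)
      = c1 * EL μ f1 + c2 * EL μ f2 + c3 * EL μ f3 + c4 * EL μ f4 := by
  rw [EL_add (by fun_prop) (by fun_prop), EL_c3 h1 h2 h3, EL_smul]

lemma EL_c6 {f1 f2 f3 f4 f5 f6 : X → ℝ} (h1 : Continuous f1) (h2 : Continuous f2)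
    (h3 : Continuous f3) (h4 : Continuous f4) (h5 : Continuous f5) (h6 : Continuous f6)
    (c1 c2 c3 c4 c5 c6 : ℝ) :
    EL μ (fun x => c1 * f1 x + c2 * f2 x + c3 * f3 x + c4 * f4 x + c5 * f5 x + c6 * f6 x)
      = c1 * EL μ f1 + c2 * EL μ f2 + c3 * EL μ f3 + c4 * EL μ f4 + c5 * EL μ f5
        + c6 * EL μ f6 := by
  rw [EL_add (by fun_prop) (by fun_prop), EL_add (by fun_prop) (by fun_prop), EL_c4 h1 h2 h3 h4,
    EL_smul, EL_smul]

lemma EL_fsum {ι : Type*} (s : Finset ι) {f : ι → X → ℝ} (hf : ∀ i, Continuous (f i)) :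
    EL μ (fun x => ∑ i ∈ s, f i x) = ∑ i ∈ s, EL μ (f i) := by
  unfold EL
  rw [integral_finsetSum _ fun i _ => int_of_cont (hf i), Finset.mul_sum]

/-- the first row for a cubic form -/
lemma row1 (h : OneP μ 3 p n) (a c b : E) :
    EL μ (fun x => 2 * ⟪b, a⟫ * (⟪p x, a⟫ * ⟪p x, c⟫) + ⟪b, c⟫ * ⟪p x, a⟫ ^ 2
      - 6 * (⟪p x, b⟫ * (⟪p x, a⟫ ^ 2 * ⟪p x, c⟫))
      - (2 * (⟪n x, b⟫ * ⟪n x, a⟫ * (⟪p x, a⟫ * ⟪p x, c⟫))
        + ⟪n x, b⟫ * ⟪n x, c⟫ * ⟪p x, a⟫ ^ 2)) = 0 := by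
  have cp := h.cp
  have cn := h.cn
  have h1 := h.r1' (((contDiff_inner_l a).mul (contDiff_inner_l a)).mul (contDiff_inner_l c))
      (fun u => ((hasFD_inner a u).mul (hasFD_inner a u)).mul (hasFD_inner c u)) b
  simp only [Pi.mul_apply, _root_.add_apply, _root_.smul_apply, smul_eq_mul, innerSL_apply_apply] at h1
  rw [← integral_const_mul, ← sub_eq_zero,
    ← integral_sub (int_of_cont (by fun_prop)) (int_of_cont (by fun_prop))] at h1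
  unfold EL
  rw [mul_eq_zero]
  right
  rw [← h1]
  refine integral_congr_ae (Filter.Eventually.of_forall fun x => ?_)
  simp only
  rw [real_inner_comm (p x) a, real_inner_comm (p x) c, real_inner_comm (n x) a,
    real_inner_comm (n x) c, real_inner_comm b a, real_inner_comm b c]
  push_cast
  ring

/-- the second row for a quadratic form -/
lemma row2 (h : OneP μ 3 p n) (a c b b' : E) :
    EL μ (fun x => ⟪n x, b⟫ * (⟪b', a⟫ * ⟪p x, c⟫ + ⟪b', c⟫ * ⟪p x, a⟫)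
      - ⟪n x, b'⟫ * (⟪b, a⟫ * ⟪p x, c⟫ + ⟪b, c⟫ * ⟪p x, a⟫)
      - 5 * (⟪n x, b⟫ * ⟪p x, b'⟫ * (⟪p x, a⟫ * ⟪p x, c⟫)
        - ⟪n x, b'⟫ * ⟪p x, b⟫ * (⟪p x, a⟫ * ⟪p x, c⟫))) = 0 := by
  have cp := h.cp
  have cn := h.cn
  have h1 := h.r2' ((contDiff_inner_l a).mul (contDiff_inner_l c))
      (fun u => (hasFD_inner a u).mul (hasFD_inner c u)) b b'
  simp only [_root_.add_apply, _root_.smul_apply, smul_eq_mul, innerSL_apply_apply] at h1
  rw [← integral_const_mul, ← sub_eq_zero,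
    ← integral_sub (int_of_cont (by fun_prop)) (int_of_cont (by fun_prop))] at h1
  unfold EL
  rw [mul_eq_zero]
  right
  rw [← h1]
  refine integral_congr_ae (Filter.Eventually.of_forall fun x => ?_)
  simp only
  rw [real_inner_comm (p x) a, real_inner_comm (p x) c, real_inner_comm b a,
    real_inner_comm b c, real_inner_comm b' a, real_inner_comm b' c]
  push_cast
  ring

/-- the first row for a linear form -/
lemma row0 (h : OneP μ 3 p n) (a b : E) :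
    EL μ (fun x => ⟪b, a⟫ - 4 * (⟪p x, a⟫ * ⟪p x, b⟫) - ⟪n x, a⟫ * ⟪n x, b⟫) = 0 := by
  have cp := h.cp
  have cn := h.cn
  have h1 := h.r1' (contDiff_inner_l a) (hasFD_inner a) b
  simp only [innerSL_apply_apply] at h1
  rw [← integral_const_mul, ← sub_eq_zero,
    ← integral_sub (int_of_cont (by fun_prop)) (int_of_cont (by fun_prop))] at h1
  unfold EL
  rw [mul_eq_zero]
  right
  rw [← h1]
  refine integral_congr_ae (Filter.Eventually.of_forall fun x => ?_)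
  simp only
  rw [real_inner_comm (p x) a, real_inner_comm (n x) a, real_inner_comm b a]
  push_cast
  ring

/-- the moments form a one point law -/
theorem mom_of (h : OneP μ 3 p n) (hA : 0 < μ.real univ) (e : OrthonormalBasis (Fin 5) ℝ E)
    {c : ℝ} (hc : c ^ 2 = 2) :
    Mom (fun j k => EL μ fun x => ⟪p x, e j⟫ ^ 2 * ⟪p x, e k⟫ ^ 2)
      (fun j k => EL μ fun x => ⟪p x, e j⟫ ^ 2 * (c * ⟪n x, e k⟫) ^ 2)
      (fun j k => EL μ fun x => ⟪p x, e j⟫ * ⟪p x, e k⟫ * ((c * ⟪n x, e j⟫) * (c * ⟪n x, e k⟫)))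
      (fun j k => EL μ fun x => ⟪p x, e j⟫ ^ 2 * (⟪p x, e k⟫ * (c * ⟪n x, e k⟫)))
      (fun k => EL μ fun x => (c * ⟪n x, e k⟫) ^ 2)
      (fun k => EL μ fun x => ⟪p x, e k⟫ * (c * ⟪n x, e k⟫))
      (fun k => EL μ fun x => ⟪p x, e k⟫ ^ 2) := by
  have cp := h.cp
  have cn := h.cn
  have ips : ∀ u v : E, ∑ i, ⟪u, e i⟫ * ⟪v, e i⟫ = ⟪u, v⟫ := by
    intro u v
    rw [← e.sum_inner_mul_inner u v]
    exact Finset.sum_congr rfl fun i _ => by rw [real_inner_comm v]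
  have hxx : ∀ x, ⟪p x, e 0⟫ ^ 2 + ⟪p x, e 1⟫ ^ 2 + ⟪p x, e 2⟫ ^ 2 + ⟪p x, e 3⟫ ^ 2
      + ⟪p x, e 4⟫ ^ 2 = 1 := fun x => by
    have := ips (p x) (p x)
    rw [h.pp, Fin.sum_univ_five] at this
    linarith
  have hnn : ∀ x, ⟪n x, e 0⟫ ^ 2 + ⟪n x, e 1⟫ ^ 2 + ⟪n x, e 2⟫ ^ 2 + ⟪n x, e 3⟫ ^ 2
      + ⟪n x, e 4⟫ ^ 2 = 1 := fun x => by
    have := ips (n x) (n x)
    rw [h.nnn, Fin.sum_univ_five] at this
    linarith
  have hxn : ∀ x, ⟪p x, e 0⟫ * ⟪n x, e 0⟫ + ⟪p x, e 1⟫ * ⟪n x, e 1⟫ + ⟪p x, e 2⟫ * ⟪n x, e 2⟫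
      + ⟪p x, e 3⟫ * ⟪n x, e 3⟫ + ⟪p x, e 4⟫ * ⟪n x, e 4⟫ = 0 := fun x => by
    have := ips (p x) (n x)
    rw [h.pn, Fin.sum_univ_five] at this
    linarith
  have ec : ∀ j k, ⟪e j, e k⟫ = if j = k then (1 : ℝ) else 0 :=
    fun j k => orthonormal_iff_ite.1 e.orthonormal j k
  refine ⟨fun j k => EL_congr fun x => by ring, fun j k => EL_congr fun x => by ring,
    fun j => EL_congr fun x => by ring, fun j => ?_, fun j => ?_, fun k => ?_, fun k => ?_,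
    fun j => ?_, fun j => ?_, ?_, fun j => ?_, fun j k hjk => ?_, fun k => ?_, fun j k => ?_,
    fun j k a b' c' => ?_, fun a c' => ?_⟩
  · rw [← EL_add (by fun_prop) (by fun_prop), ← EL_add (by fun_prop) (by fun_prop),
      ← EL_add (by fun_prop) (by fun_prop), ← EL_add (by fun_prop) (by fun_prop)]
    exact EL_congr fun x => by linear_combination ⟪p x, e j⟫ ^ 2 * hxx x
  · rw [← EL_add (by fun_prop) (by fun_prop), ← EL_add (by fun_prop) (by fun_prop),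
      ← EL_add (by fun_prop) (by fun_prop), ← EL_add (by fun_prop) (by fun_prop), ← EL_smul]
    exact EL_congr fun x => by
      linear_combination ⟪p x, e j⟫ ^ 2 * c ^ 2 * hnn x + ⟪p x, e j⟫ ^ 2 * hc
  · rw [← EL_add (by fun_prop) (by fun_prop), ← EL_add (by fun_prop) (by fun_prop),
      ← EL_add (by fun_prop) (by fun_prop), ← EL_add (by fun_prop) (by fun_prop)]
    exact EL_congr fun x => by linear_combination (c * ⟪n x, e k⟫) ^ 2 * hxx x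
  · rw [← EL_add (by fun_prop) (by fun_prop), ← EL_add (by fun_prop) (by fun_prop),
      ← EL_add (by fun_prop) (by fun_prop), ← EL_add (by fun_prop) (by fun_prop)]
    exact EL_congr fun x => by linear_combination (⟪p x, e k⟫ * (c * ⟪n x, e k⟫)) * hxx x
  · rw [← EL_add (by fun_prop) (by fun_prop), ← EL_add (by fun_prop) (by fun_prop),
      ← EL_add (by fun_prop) (by fun_prop), ← EL_add (by fun_prop) (by fun_prop)]
    refine Eq.trans (EL_congr (g := fun _ => 0) fun x => ?_) (EL_const hA 0)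
    linear_combination (⟪p x, e j⟫ ^ 2 * c) * hxn x
  · rw [← EL_add (by fun_prop) (by fun_prop), ← EL_add (by fun_prop) (by fun_prop),
      ← EL_add (by fun_prop) (by fun_prop), ← EL_add (by fun_prop) (by fun_prop)]
    refine Eq.trans (EL_congr (g := fun _ => 0) fun x => ?_) (EL_const hA 0)
    linear_combination (⟪p x, e j⟫ * ⟪n x, e j⟫ * c ^ 2) * hxn x
  · rw [← EL_add (by fun_prop) (by fun_prop), ← EL_add (by fun_prop) (by fun_prop),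
      ← EL_add (by fun_prop) (by fun_prop), ← EL_add (by fun_prop) (by fun_prop)]
    refine Eq.trans (EL_congr (g := fun _ => 1) fun x => hxx x) (EL_const hA 1)
  · have h1 := row0 h (e j) (e j)
    have e1 : EL μ (fun x => ⟪e j, e j⟫ - 4 * (⟪p x, e j⟫ * ⟪p x, e j⟫) - ⟪n x, e j⟫ * ⟪n x, e j⟫)
        = 1 * EL μ (fun _ => (1 : ℝ)) + (-4) * EL μ (fun x => ⟪p x, e j⟫ ^ 2)
          + (-(1 / 2)) * EL μ (fun x => (c * ⟪n x, e j⟫) ^ 2) := by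
      rw [← EL_c3 (by fun_prop) (by fun_prop) (by fun_prop)]
      refine EL_congr fun x => ?_
      rw [ec, if_pos rfl]
      linear_combination (1 / 2 * ⟪n x, e j⟫ ^ 2) * hc
    rw [e1, EL_const hA] at h1
    linarith
  · have h1 := row1 h (e j) (e k) (e k)
    have e1 : EL μ (fun x => 2 * ⟪e k, e j⟫ * (⟪p x, e j⟫ * ⟪p x, e k⟫)
        + ⟪e k, e k⟫ * ⟪p x, e j⟫ ^ 2 - 6 * (⟪p x, e k⟫ * (⟪p x, e j⟫ ^ 2 * ⟪p x, e k⟫))
        - (2 * (⟪n x, e k⟫ * ⟪n x, e j⟫ * (⟪p x, e j⟫ * ⟪p x, e k⟫))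
          + ⟪n x, e k⟫ * ⟪n x, e k⟫ * ⟪p x, e j⟫ ^ 2))
        = 1 * EL μ (fun x => ⟪p x, e j⟫ ^ 2)
          + (-(1 / 2)) * EL μ (fun x => ⟪p x, e j⟫ ^ 2 * (c * ⟪n x, e k⟫) ^ 2)
          + (-1) * EL μ (fun x => ⟪p x, e j⟫ * ⟪p x, e k⟫
            * ((c * ⟪n x, e j⟫) * (c * ⟪n x, e k⟫)))
          + (-6) * EL μ (fun x => ⟪p x, e j⟫ ^ 2 * ⟪p x, e k⟫ ^ 2) := by
      rw [← EL_c4 (by fun_prop) (by fun_prop) (by fun_prop) (by fun_prop)]
      refine EL_congr fun x => ?_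
      rw [ec, ec, if_neg (Ne.symm hjk), if_pos rfl]
      linear_combination (1 / 2 * ⟪p x, e j⟫ ^ 2 * ⟪n x, e k⟫ ^ 2
        + ⟪p x, e j⟫ * ⟪p x, e k⟫ * ⟪n x, e j⟫ * ⟪n x, e k⟫) * hc
    rw [e1] at h1
    linarith
  · have h1 := row1 h (e k) (e k) (e k)
    have e1 : EL μ (fun x => 2 * ⟪e k, e k⟫ * (⟪p x, e k⟫ * ⟪p x, e k⟫)
        + ⟪e k, e k⟫ * ⟪p x, e k⟫ ^ 2 - 6 * (⟪p x, e k⟫ * (⟪p x, e k⟫ ^ 2 * ⟪p x, e k⟫))
        - (2 * (⟪n x, e k⟫ * ⟪n x, e k⟫ * (⟪p x, e k⟫ * ⟪p x, e k⟫))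
          + ⟪n x, e k⟫ * ⟪n x, e k⟫ * ⟪p x, e k⟫ ^ 2))
        = 3 * EL μ (fun x => ⟪p x, e k⟫ ^ 2)
          + (-(3 / 2)) * EL μ (fun x => ⟪p x, e k⟫ ^ 2 * (c * ⟪n x, e k⟫) ^ 2)
          + (-6) * EL μ (fun x => ⟪p x, e k⟫ ^ 2 * ⟪p x, e k⟫ ^ 2) := by
      rw [← EL_c3 (by fun_prop) (by fun_prop) (by fun_prop)]
      refine EL_congr fun x => ?_
      rw [ec, if_pos rfl]
      linear_combination (3 / 2 * ⟪p x, e k⟫ ^ 2 * ⟪n x, e k⟫ ^ 2) * hc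
    rw [e1] at h1
    linarith
  · by_cases hjk : j = k
    · rw [hjk]
      ring
    have h1 := row2 h (e j) (e k) (e j) (e k)
    have e1 : c * EL μ (fun x => ⟪n x, e j⟫ * (⟪e k, e j⟫ * ⟪p x, e k⟫ + ⟪e k, e k⟫ * ⟪p x, e j⟫)
        - ⟪n x, e k⟫ * (⟪e j, e j⟫ * ⟪p x, e k⟫ + ⟪e j, e k⟫ * ⟪p x, e j⟫)
        - 5 * (⟪n x, e j⟫ * ⟪p x, e k⟫ * (⟪p x, e j⟫ * ⟪p x, e k⟫)
          - ⟪n x, e k⟫ * ⟪p x, e j⟫ * (⟪p x, e j⟫ * ⟪p x, e k⟫)))
        = 1 * EL μ (fun x => ⟪p x, e j⟫ * (c * ⟪n x, e j⟫))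
          + (-1) * EL μ (fun x => ⟪p x, e k⟫ * (c * ⟪n x, e k⟫))
          + 5 * EL μ (fun x => ⟪p x, e j⟫ ^ 2 * (⟪p x, e k⟫ * (c * ⟪n x, e k⟫)))
          + (-5) * EL μ (fun x => ⟪p x, e k⟫ ^ 2 * (⟪p x, e j⟫ * (c * ⟪n x, e j⟫))) := by
      rw [← EL_c4 (by fun_prop) (by fun_prop) (by fun_prop) (by fun_prop), ← EL_smul]
      refine EL_congr fun x => ?_
      rw [ec, ec, ec, ec, if_neg hjk, if_neg (Ne.symm hjk), if_pos rfl, if_pos rfl]
      ring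
    rw [h1] at e1
    linarith
  · have h1 : 0 ≤ EL μ (fun x => (a * (⟪p x, e j⟫ * ⟪p x, e k⟫)
        + b' * (⟪p x, e j⟫ * (c * ⟪n x, e k⟫)) + c' * (⟪p x, e k⟫ * (c * ⟪n x, e j⟫))) ^ 2) :=
      EL_nonneg fun x => sq_nonneg _
    rw [← EL_c6 (by fun_prop) (by fun_prop) (by fun_prop) (by fun_prop) (by fun_prop)
      (by fun_prop)]
    refine h1.trans (le_of_eq (EL_congr fun x => ?_))
    ring
  · have h1 : 0 ≤ EL μ (fun x => (∑ j, (a j * ⟪p x, e j⟫ ^ 2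
        + c' j * (⟪p x, e j⟫ * (c * ⟪n x, e j⟫)))) ^ 2) := EL_nonneg fun x => sq_nonneg _
    have h2 : EL μ (fun x => (∑ j, (a j * ⟪p x, e j⟫ ^ 2
        + c' j * (⟪p x, e j⟫ * (c * ⟪n x, e j⟫)))) ^ 2)
        = ∑ j, ∑ k, (a j * a k * EL μ (fun x => ⟪p x, e j⟫ ^ 2 * ⟪p x, e k⟫ ^ 2)
          + 2 * a j * c' k * EL μ (fun x => ⟪p x, e j⟫ ^ 2 * (⟪p x, e k⟫ * (c * ⟪n x, e k⟫)))
          + c' j * c' k * EL μ (fun x => ⟪p x, e j⟫ * ⟪p x, e k⟫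
            * ((c * ⟪n x, e j⟫) * (c * ⟪n x, e k⟫)))) := by
      have h3 : ∀ j k, (a j * a k * EL μ (fun x => ⟪p x, e j⟫ ^ 2 * ⟪p x, e k⟫ ^ 2)
          + 2 * a j * c' k * EL μ (fun x => ⟪p x, e j⟫ ^ 2 * (⟪p x, e k⟫ * (c * ⟪n x, e k⟫)))
          + c' j * c' k * EL μ (fun x => ⟪p x, e j⟫ * ⟪p x, e k⟫
            * ((c * ⟪n x, e j⟫) * (c * ⟪n x, e k⟫))))
          = EL μ (fun x => a j * a k * (⟪p x, e j⟫ ^ 2 * ⟪p x, e k⟫ ^ 2)
          + 2 * a j * c' k * (⟪p x, e j⟫ ^ 2 * (⟪p x, e k⟫ * (c * ⟪n x, e k⟫)))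
          + c' j * c' k * (⟪p x, e j⟫ * ⟪p x, e k⟫
            * ((c * ⟪n x, e j⟫) * (c * ⟪n x, e k⟫)))) := fun j k => by
        rw [EL_c3 (by fun_prop) (by fun_prop) (by fun_prop)]
      simp only [h3]
      have h4 : ∀ j, ∑ k, EL μ (fun x => a j * a k * (⟪p x, e j⟫ ^ 2 * ⟪p x, e k⟫ ^ 2)
          + 2 * a j * c' k * (⟪p x, e j⟫ ^ 2 * (⟪p x, e k⟫ * (c * ⟪n x, e k⟫)))
          + c' j * c' k * (⟪p x, e j⟫ * ⟪p x, e k⟫
            * ((c * ⟪n x, e j⟫) * (c * ⟪n x, e k⟫))))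
          = EL μ (fun x => ∑ k, (a j * a k * (⟪p x, e j⟫ ^ 2 * ⟪p x, e k⟫ ^ 2)
          + 2 * a j * c' k * (⟪p x, e j⟫ ^ 2 * (⟪p x, e k⟫ * (c * ⟪n x, e k⟫)))
          + c' j * c' k * (⟪p x, e j⟫ * ⟪p x, e k⟫
            * ((c * ⟪n x, e j⟫) * (c * ⟪n x, e k⟫))))) := fun j =>
        (EL_fsum _ fun k => by fun_prop).symm
      simp only [h4]
      rw [← EL_fsum _ fun j => by fun_prop]
      refine EL_congr fun x => ?_
      simp only [Fin.sum_univ_five]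
      ring
    rw [← h2]
    exact h1

end

end Vale.Agent.P224.R2.H176
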