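import Vale.Agent.P224.R2.H176.T0.Alg4
import Vale.Agent.P224.R2.H176.T0.Inst
import Vale.Agent.P224.SO.StabV
import Vale.Agent.P224.PO.CoreK

/-!
The stable resource in dimension three, from the one point rows.
-/

namespace Vale.Agent.P224.R2.H176

open MeasureTheory Module Function Set Filter Vale.Agent.P224.R2.H470
open Vale.Agent.P224.UE Vale.Agent.P224.PO
open scoped RealInnerProductSpace Topology ContDiff

set_option linter.unusedSectionVars false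

/-- the general quadratic resource -/
noncomputable def RQ (r0 u00 u33 u03 u11 u12 v0 v3 : ℝ) (d : R9) : ℝ :=
  r0 + u00 * (d 0 * d 0) + u33 * (d 3 * d 3) + u03 * (d 0 * d 3)
    + u11 / 2 * (d 1 * d 1) + u11 / 2 * (d 2 * d 2) + u12 * (d 1 * d 2)
    + v0 / 2 * (d 0 * d 1) + v0 / 2 * (d 0 * d 2) + v3 / 2 * (d 3 * d 1) + v3 / 2 * (d 3 * d 2)

/-- adding a term to an integral -/
lemma il {Y : Type*} [MeasurableSpace Y] {ν : Measure Y} {f g : Y → ℝ} (hf : Integrable f ν)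
    (hg : Integrable g ν) (c : ℝ) :
    Integrable (fun q => f q + c * g q) ν ∧
      ∫ q, (f q + c * g q) ∂ν = ∫ q, f q ∂ν + c * ∫ q, g q ∂ν :=
  ⟨hf.add (hg.const_mul c), by rw [integral_add hf (hg.const_mul c), integral_const_mul]⟩

section

variable {X : Type*} {E : Type*} [NormedAddCommGroup E] [InnerProductSpace ℝ E]
  [FiniteDimensional ℝ E] [MeasurableSpace E] [BorelSpace E]
  [TopologicalSpace X] [MeasurableSpace X] [CompactSpace X] [BorelSpace X] {μ : Measure X}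
  [IsFiniteMeasure μ] {p n : X → E}

lemma pint {f g f' g' : X → E} (hf : SO.UF f) (hg : SO.UF g) (hf' : SO.UF f')
    (hg' : SO.UF g') :
    Integrable (fun q : X × X => ⟪f q.1, f' q.2⟫ * ⟪g q.1, g' q.2⟫) (μ.prod μ) := by
  refine SO.integrable_bdd (C := 1) (((hf.meas.comp measurable_fst).inner
    (hf'.meas.comp measurable_snd)).mul ((hg.meas.comp measurable_fst).inner
    (hg'.meas.comp measurable_snd))) fun q => ?_
  have h1 := abs_real_inner_le_norm (f q.1) (f' q.2)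
  have h2 := abs_real_inner_le_norm (g q.1) (g' q.2)
  rw [hf.unit, hf'.unit, mul_one] at h1
  rw [hg.unit, hg'.unit, mul_one] at h2
  rw [abs_mul]
  calc |⟪f q.1, f' q.2⟫| * |⟪g q.1, g' q.2⟫| ≤ 1 * 1 :=
        mul_le_mul h1 h2 (abs_nonneg _) zero_le_one
    _ = 1 := one_mul 1

/-- the moments in dimension three -/
lemma mom5 (h : OneP μ 3 p n) (hE : finrank ℝ E = 3 + 2)
    (hsp : ∀ w, (∀ x, ⟪p x, w⟫ = 0) → w = 0) :
    ∃ (b : OrthonormalBasis (Fin 5) ℝ E) (ξ β : Fin 5 → ℝ) (o : ℝ), 0 ≤ o ∧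
      (∀ i, SO.mom μ p p (b i) (b i) = ξ i) ∧ (∀ i, SO.mom μ p n (b i) (b i) = β i) ∧
      (∀ i, SO.mom μ n n (b i) (b i) = μ.real univ - 4 * ξ i) ∧
      ∑ i, ξ i = μ.real univ ∧ ∑ i, β i = 0 ∧
      ∫ q : X × X, ⟪p q.1, p q.2⟫ * ⟪p q.1, p q.2⟫ ∂(μ.prod μ) = ∑ i, ξ i ^ 2 + o ∧
      ∫ q : X × X, ⟪p q.1, p q.2⟫ * ⟪n q.1, n q.2⟫ ∂(μ.prod μ) = ∑ i, β i ^ 2 ∧
      ∫ q : X × X, ⟪p q.1, p q.2⟫ * ⟪p q.1, n q.2⟫ ∂(μ.prod μ) = ∑ i, ξ i * β i ∧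
      ∫ q : X × X, ⟪p q.1, p q.2⟫ * ⟪n q.1, p q.2⟫ ∂(μ.prod μ) = ∑ i, ξ i * β i ∧
      ∫ q : X × X, ⟪p q.1, n q.2⟫ * ⟪p q.1, n q.2⟫ ∂(μ.prod μ)
        = ∑ i, ξ i * (μ.real univ - 4 * ξ i) - 4 * o ∧
      ∫ q : X × X, ⟪n q.1, p q.2⟫ * ⟪n q.1, p q.2⟫ ∂(μ.prod μ)
        = ∑ i, ξ i * (μ.real univ - 4 * ξ i) - 4 * o ∧
      ∫ q : X × X, ⟪p q.1, n q.2⟫ * ⟪n q.1, p q.2⟫ ∂(μ.prod μ) = ∑ i, β i ^ 2 ∧
      ∫ q : X × X, ⟪n q.1, n q.2⟫ * ⟪n q.1, n q.2⟫ ∂(μ.prod μ)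
        = ∑ i, (μ.real univ - 4 * ξ i) ^ 2 + 4 ^ 2 * o ∧
      ∫ q : X × X, ⟪n q.1, n q.2⟫ * ⟪p q.1, n q.2⟫ ∂(μ.prod μ)
        = ∑ i, β i * (μ.real univ - 4 * ξ i) ∧
      ∫ q : X × X, ⟪n q.1, n q.2⟫ * ⟪n q.1, p q.2⟫ ∂(μ.prod μ)
        = ∑ i, β i * (μ.real univ - 4 * ξ i) := by
  have cp := h.cp
  have cn := h.cn
  have hp : SO.UF p := ⟨h.cp.measurable, h.np⟩
  have hn : SO.UF n := ⟨h.cn.measurable, h.nn⟩
  have hrow : ∀ e : E, ∫ x, (⟪e, e⟫ - ⟪n x, e⟫ ^ 2 - (((3 : ℕ) : ℝ) + 1) * ⟪p x, e⟫ ^ 2) ∂μ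
      = 0 := by
    intro e
    have h1 := h.mom2 e e
    rw [integral_sub (int_of_cont (by fun_prop)) (int_of_cont (by fun_prop)),
      integral_sub (int_of_cont (by fun_prop)) (int_of_cont (by fun_prop)), integral_const,
      integral_const_mul, smul_eq_mul]
    simp only [sq]
    linarith
  have hsym : ∀ (z : X) (e : E),
      ∫ x, (⟪n x, p z⟫ * ⟪p x, e⟫ - ⟪n x, e⟫ * ⟪p x, p z⟫) ∂μ = 0 := by
    intro z e
    have h1 := h.alt1 (by norm_num) (p z) e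
    rw [integral_sub (int_of_cont (by fun_prop)) (int_of_cont (by fun_prop)), h1, sub_self]
  have e4 : (((3 : ℕ) : ℝ) + 1) = 4 := by norm_num
  obtain ⟨b, ξ, β, o, ho, m1, m2, m3, s1, s2, -, I00, I03, I01, I02, I11, I22, I12, I33, I31,
    I32⟩ := SO.moments (m := 3) hE hp hn h.pn hrow hsym hsp
  rw [e4] at *
  exact ⟨b, ξ, β, o, ho, m1, m2, m3, s1, s2, I00, I03, I01, I02, I11, I22, I12, I33, I31, I32⟩

/-- the mean of the general resource -/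
lemma int_RQ (h : OneP μ 3 p n) {ξ β : Fin 5 → ℝ} {o : ℝ}
    (s1 : ∑ i, ξ i = μ.real univ) (s2 : ∑ i, β i = 0)
    (I00 : ∫ q : X × X, ⟪p q.1, p q.2⟫ * ⟪p q.1, p q.2⟫ ∂(μ.prod μ) = ∑ i, ξ i ^ 2 + o)
    (I03 : ∫ q : X × X, ⟪p q.1, p q.2⟫ * ⟪n q.1, n q.2⟫ ∂(μ.prod μ) = ∑ i, β i ^ 2)
    (I01 : ∫ q : X × X, ⟪p q.1, p q.2⟫ * ⟪p q.1, n q.2⟫ ∂(μ.prod μ) = ∑ i, ξ i * β i)
    (I02 : ∫ q : X × X, ⟪p q.1, p q.2⟫ * ⟪n q.1, p q.2⟫ ∂(μ.prod μ) = ∑ i, ξ i * β i)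
    (I11 : ∫ q : X × X, ⟪p q.1, n q.2⟫ * ⟪p q.1, n q.2⟫ ∂(μ.prod μ)
        = ∑ i, ξ i * (μ.real univ - 4 * ξ i) - 4 * o)
    (I22 : ∫ q : X × X, ⟪n q.1, p q.2⟫ * ⟪n q.1, p q.2⟫ ∂(μ.prod μ)
        = ∑ i, ξ i * (μ.real univ - 4 * ξ i) - 4 * o)
    (I12 : ∫ q : X × X, ⟪p q.1, n q.2⟫ * ⟪n q.1, p q.2⟫ ∂(μ.prod μ) = ∑ i, β i ^ 2)
    (I33 : ∫ q : X × X, ⟪n q.1, n q.2⟫ * ⟪n q.1, n q.2⟫ ∂(μ.prod μ)
        = ∑ i, (μ.real univ - 4 * ξ i) ^ 2 + 4 ^ 2 * o)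
    (I31 : ∫ q : X × X, ⟪n q.1, n q.2⟫ * ⟪p q.1, n q.2⟫ ∂(μ.prod μ)
        = ∑ i, β i * (μ.real univ - 4 * ξ i))
    (I32 : ∫ q : X × X, ⟪n q.1, n q.2⟫ * ⟪n q.1, p q.2⟫ ∂(μ.prod μ)
        = ∑ i, β i * (μ.real univ - 4 * ξ i))
    (r0 u00 u33 u03 u11 u12 v0 v3 : ℝ) :
    ∫ q, RQ r0 u00 u33 u03 u11 u12 v0 v3 (dat p (fun x => -n x) (0 : E) q) ∂(μ.prod μ)
      = (r0 - 3 * u33 + u11) * μ.real univ ^ 2
        + (u00 + 16 * u33 - 4 * u11) * (∑ i, ξ i ^ 2 + o) + (u03 + u12) * ∑ i, β i ^ 2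
        - (v0 - 4 * v3) * ∑ i, ξ i * β i := by
  have hp : SO.UF p := ⟨h.cp.measurable, h.np⟩
  have hn : SO.UF n := ⟨h.cn.measurable, h.nn⟩
  set A := μ.real univ with hA
  have hAA : (μ.prod μ).real univ = A ^ 2 := by
    rw [hA, measureReal_def, measureReal_def, ← univ_prod_univ, Measure.prod_prod,
      ENNReal.toReal_mul, sq]
  have a0 : Integrable (fun _ : X × X => r0) (μ.prod μ) := integrable_const _
  have a1 := il a0 (pint (μ := μ) hp hp hp hp) u00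
  have a2 := il a1.1 (pint (μ := μ) hn hn hn hn) u33
  have a3 := il a2.1 (pint (μ := μ) hp hn hp hn) u03
  have a4 := il a3.1 (pint (μ := μ) hp hp hn hn) (u11 / 2)
  have a5 := il a4.1 (pint (μ := μ) hn hn hp hp) (u11 / 2)
  have a6 := il a5.1 (pint (μ := μ) hp hn hn hp) u12
  have a7 := il a6.1 (pint (μ := μ) hp hp hp hn) (-(v0 / 2))
  have a8 := il a7.1 (pint (μ := μ) hp hn hp hp) (-(v0 / 2))
  have a9 := il a8.1 (pint (μ := μ) hn hp hn hn) (-(v3 / 2))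
  have a10 := il a9.1 (pint (μ := μ) hn hn hn hp) (-(v3 / 2))
  have e1 : ∫ q, RQ r0 u00 u33 u03 u11 u12 v0 v3 (dat p (fun x => -n x) (0 : E) q) ∂(μ.prod μ)
      = ∫ q : X × X, (r0 + u00 * (⟪p q.1, p q.2⟫ * ⟪p q.1, p q.2⟫)
        + u33 * (⟪n q.1, n q.2⟫ * ⟪n q.1, n q.2⟫) + u03 * (⟪p q.1, p q.2⟫ * ⟪n q.1, n q.2⟫)
        + u11 / 2 * (⟪p q.1, n q.2⟫ * ⟪p q.1, n q.2⟫)
        + u11 / 2 * (⟪n q.1, p q.2⟫ * ⟪n q.1, p q.2⟫)
        + u12 * (⟪p q.1, n q.2⟫ * ⟪n q.1, p q.2⟫)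
        + -(v0 / 2) * (⟪p q.1, p q.2⟫ * ⟪p q.1, n q.2⟫)
        + -(v0 / 2) * (⟪p q.1, p q.2⟫ * ⟪n q.1, p q.2⟫)
        + -(v3 / 2) * (⟪n q.1, n q.2⟫ * ⟪p q.1, n q.2⟫)
        + -(v3 / 2) * (⟪n q.1, n q.2⟫ * ⟪n q.1, p q.2⟫)) ∂(μ.prod μ) := by
    refine integral_congr_ae (Filter.Eventually.of_forall fun q => ?_)
    have d0 : dat p (fun x => -n x) (0 : E) q 0 = ⟪p q.1, p q.2⟫ := rfl
    have d1 : dat p (fun x => -n x) (0 : E) q 1 = ⟪p q.1, -n q.2⟫ := rfl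
    have d2 : dat p (fun x => -n x) (0 : E) q 2 = ⟪-n q.1, p q.2⟫ := rfl
    have d3 : dat p (fun x => -n x) (0 : E) q 3 = ⟪-n q.1, -n q.2⟫ := rfl
    simp only [RQ, d0, d1, d2, d3, inner_neg_left, inner_neg_right]
    ring
  rw [e1, a10.2, a9.2, a8.2, a7.2, a6.2, a5.2, a4.2, a3.2, a2.2, a1.2, integral_const,
    smul_eq_mul, hAA, I00, I03, I01, I02, I11, I22, I12, I33, I31, I32]
  have f1 : ∑ i, ξ i * (A - 4 * ξ i) = A ^ 2 - 4 * ∑ i, ξ i ^ 2 := by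
    have : ∀ i, ξ i * (A - 4 * ξ i) = A * ξ i - 4 * ξ i ^ 2 := fun i => by ring
    simp only [this, Finset.sum_sub_distrib, ← Finset.mul_sum, s1]
    ring
  have f2 : ∑ i, (A - 4 * ξ i) ^ 2 = -3 * A ^ 2 + 16 * ∑ i, ξ i ^ 2 := by
    have : ∀ i, (A - 4 * ξ i) ^ 2 = A ^ 2 - 8 * A * ξ i + 16 * ξ i ^ 2 := fun i => by ring
    simp only [this, Finset.sum_sub_distrib, Finset.sum_add_distrib, ← Finset.mul_sum, s1,
      Finset.sum_const, Finset.card_univ, Fintype.card_fin, nsmul_eq_mul]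
    push_cast
    ring
  have f3 : ∑ i, β i * (A - 4 * ξ i) = -4 * ∑ i, ξ i * β i := by
    have : ∀ i, β i * (A - 4 * ξ i) = A * β i - 4 * (ξ i * β i) := fun i => by ring
    simp only [this, Finset.sum_sub_distrib, ← Finset.mul_sum, s2]
    ring
  rw [f1, f2, f3]
  ring

/-- the moments, the comparison and the deviation -/
theorem dataQ (h : OneP μ 3 p n) (hE : finrank ℝ E = 3 + 2)
    (hsp : ∀ w, (∀ x, ⟪p x, w⟫ = 0) → w = 0) (hA : 0 < μ.real univ)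
    (hor : 0 ≤ ∫ q : X × X, ⟪p q.1, p q.2⟫ * ⟪p q.1, n q.2⟫ ∂(μ.prod μ))
    {al be a2 : ℝ} (hal : 0 ≤ al) (ha2 : 0 < a2)
    {r0 u00 u33 u03 u11 u12 v0 v3 : ℝ} (h1 : u03 + u12 = -a2)
    (h2 : u00 + 16 * u33 - 4 * u11 = 16 * (a2 * al)) (h3 : v0 - 4 * v3 = -(4 * √2 * (a2 * be)))
    (h4 : 5 / 27 * a2 - 7 / 27 * (a2 * al) - 4 / 27 * (a2 * be)
      ≤ r0 - 3 * u33 + u11 + 3 * (a2 * al)) :
    ∃ (b : OrthonormalBasis (Fin 5) ℝ E) (M P Q U : Fin 5 → Fin 5 → ℝ) (D B Y : Fin 5 → ℝ),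
      Mom M P Q U D B Y ∧ 0 ≤ ∑ k, D k * B k ∧
      a2 / 2 * (μ.real univ ^ 2 * Fq al be D B) ≤
        ∫ q, RQ r0 u00 u33 u03 u11 u12 v0 v3 (dat p (fun x => -n x) (0 : E) q) ∂(μ.prod μ) ∧
      ∀ σ : Equiv.Perm (Fin 5),
        ∫ x, ‖devA (√2 / 2) b (Finset.image σ {2, 3, 4}) (p x) (n x)‖ ^ 2 ∂μ
          = μ.real univ * Et (fun j => D (σ j)) (fun j => B (σ j)) := by
  have hp : SO.UF p := ⟨h.cp.measurable, h.np⟩
  have hn : SO.UF n := ⟨h.cn.measurable, h.nn⟩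
  obtain ⟨b, ξ, β, o, ho, m1, m2, m3, s1, s2, I00, I03, I01, I02, I11, I22, I12, I33, I31, I32⟩ :=
    mom5 h hE hsp
  have hQ := int_RQ h s1 s2 I00 I03 I01 I02 I11 I22 I12 I33 I31 I32 r0 u00 u33 u03 u11 u12 v0 v3
  set A := μ.real univ with hAd
  set Q := ∫ q, RQ r0 u00 u33 u03 u11 u12 v0 v3 (dat p (fun x => -n x) (0 : E) q) ∂(μ.prod μ)
    with hQd
  have hq2 : √2 ^ 2 = (2 : ℝ) := Real.sq_sqrt (by norm_num)
  have hq2' : √2 * √2 = (2 : ℝ) := Real.mul_self_sqrt (by norm_num)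
  have hM := mom_of h hA b (c := -√2) (by rw [neg_sq, hq2])
  -- the values
  have eD : ∀ k, EL μ (fun x => (-√2 * ⟪n x, b k⟫) ^ 2) = 2 * ((A - 4 * ξ k) / A) := by
    intro k
    have e1 : EL μ (fun x => (-√2 * ⟪n x, b k⟫) ^ 2)
        = EL μ (fun x => 2 * (⟪n x, b k⟫ * ⟪n x, b k⟫)) := EL_congr fun x => by
      rw [mul_pow, neg_sq, hq2]; ring
    rw [e1, EL_smul, ← m3 k]
    unfold EL SO.mom
    rw [← hAd]
    field_simp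
  have eB : ∀ k, EL μ (fun x => ⟪p x, b k⟫ * (-√2 * ⟪n x, b k⟫)) = -√2 * (β k / A) := by
    intro k
    have e1 : EL μ (fun x => ⟪p x, b k⟫ * (-√2 * ⟪n x, b k⟫))
        = EL μ (fun x => -√2 * (⟪p x, b k⟫ * ⟪n x, b k⟫)) := EL_congr fun x => by ring
    rw [e1, EL_smul, ← m2 k]
    unfold EL SO.mom
    rw [← hAd]
    field_simp
  set D : Fin 5 → ℝ := fun k => EL μ (fun x => (-√2 * ⟪n x, b k⟫) ^ 2) with hD
  set Bv : Fin 5 → ℝ := fun k => EL μ (fun x => ⟪p x, b k⟫ * (-√2 * ⟪n x, b k⟫)) with hBv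
  have eD' : ∀ k, D k = 2 * ((A - 4 * ξ k) / A) := eD
  have eB' : ∀ k, Bv k = -√2 * (β k / A) := eB
  have g1 : A ^ 2 * ∑ k, D k ^ 2 = 4 * (-3 * A ^ 2 + 16 * ∑ i, ξ i ^ 2) := by
    have : ∀ k, D k ^ 2 = (4 * A ^ 2 - 32 * A * ξ k + 64 * ξ k ^ 2) / A ^ 2 := fun k => by
      rw [eD']; field_simp; ring
    simp only [this]
    have e5 : ∑ k, (4 * A ^ 2 - 32 * A * ξ k + 64 * ξ k ^ 2)
        = -12 * A ^ 2 + 64 * ∑ i, ξ i ^ 2 := by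
      simp only [Finset.sum_add_distrib, Finset.sum_sub_distrib, ← Finset.mul_sum, s1,
        Finset.sum_const, Finset.card_univ, Fintype.card_fin, nsmul_eq_mul]
      push_cast
      ring
    rw [← Finset.sum_div, e5]
    field_simp
    ring
  have g2 : A ^ 2 * ∑ k, Bv k ^ 2 = 2 * ∑ i, β i ^ 2 := by
    have : ∀ k, Bv k ^ 2 = (2 * β k ^ 2) / A ^ 2 := fun k => by
      rw [eB', mul_pow, neg_sq, hq2, div_pow]; ring
    simp only [this]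
    rw [← Finset.sum_div, ← Finset.mul_sum]
    field_simp
  have g3 : A ^ 2 * ∑ k, D k * Bv k = 8 * √2 * ∑ i, ξ i * β i := by
    have : ∀ k, D k * Bv k = (8 * √2 * (ξ k * β k) - 2 * √2 * A * β k) / A ^ 2 := fun k => by
      rw [eD', eB']; field_simp; ring
    simp only [this]
    rw [← Finset.sum_div, Finset.sum_sub_distrib, ← Finset.mul_sum, ← Finset.mul_sum, s2]
    field_simp
    ring
  have hA2 : 0 < A ^ 2 := by positivity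
  refine ⟨b, _, _, _, _, D, Bv, _, hM, ?_, ?_, ?_⟩
  · rw [I01] at hor
    have h5 : 0 ≤ A ^ 2 * ∑ k, D k * Bv k := by rw [g3]; positivity
    exact nonneg_of_mul_nonneg_right h5 hA2
  · -- the comparison
    have e1 : A ^ 2 * Fq al be D Bv
        = A ^ 2 * (10 / 27 - 14 / 27 * al - 8 / 27 * be)
          + al / 2 * (4 * (-3 * A ^ 2 + 16 * ∑ i, ξ i ^ 2)) - 2 * ∑ i, β i ^ 2
          + be * (8 * √2 * ∑ i, ξ i * β i) := by
      rw [Fq_eq, ← g1, ← g2, ← g3]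
      ring
    rw [e1, hQ, h1, h2, h3]
    have h5 : 0 ≤ 16 * (a2 * al) * o := by positivity
    have h6 := mul_le_mul_of_nonneg_left h4 hA2.le
    linarith
  · intro σ
    rw [integral_devA hp hn]
    simp only [m1, m2, m3]
    have hJ : -(1 / (√2 / 2)) = -√2 := by
      have h3 : √2 ≠ 0 := Real.sqrt_ne_zero'.2 (by norm_num)
      rw [neg_inj, one_div, inv_div, div_eq_iff h3]
      exact hq2'.symm
    rw [← Equiv.sum_comp σ]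
    have hmem : ∀ j, σ j ∈ Finset.image σ {2, 3, 4} ↔ j ∈ ({2, 3, 4} : Finset (Fin 5)) :=
      fun j => σ.injective.mem_finset_image
    simp only [hmem, hJ]
    have s1' : ∑ j, ξ (σ j) = A := (Equiv.sum_comp σ ξ).trans s1
    have s2' : ∑ j, β (σ j) = 0 := (Equiv.sum_comp σ β).trans s2
    unfold Et
    simp only [eD', eB']
    rw [Fin.sum_univ_five] at s1' s2' ⊢
    rw [if_neg (by decide), if_neg (by decide), if_pos (by decide), if_pos (by decide),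
      if_pos (by decide)]
    have k1 : ξ (σ 4) = A - ξ (σ 0) - ξ (σ 1) - ξ (σ 2) - ξ (σ 3) := by linarith
    have k2 : β (σ 4) = -β (σ 0) - β (σ 1) - β (σ 2) - β (σ 3) := by linarith
    rw [k1, k2]
    field_simp
    rw [hq2]
    ring

/-- **The stable resource in dimension three**, for every quadratic resource which vanishes on the
Clifford hypersurface. -/
theorem stabQ (h : OneP μ 3 p n) (hE : finrank ℝ E = 3 + 2)
    (hsp : ∀ w, (∀ x, ⟪p x, w⟫ = 0) → w = 0) (hA : 0 < μ.real univ)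
    (hor : 0 ≤ ∫ q : X × X, ⟪p q.1, p q.2⟫ * ⟪p q.1, n q.2⟫ ∂(μ.prod μ))
    {al be a2 t k : ℝ} (hal : 0 ≤ al) (ha2 : 0 < a2) (hR : Res al be t k)
    {r0 u00 u33 u03 u11 u12 v0 v3 : ℝ} (h1 : u03 + u12 = -a2)
    (h2 : u00 + 16 * u33 - 4 * u11 = 16 * (a2 * al)) (h3 : v0 - 4 * v3 = -(4 * √2 * (a2 * be)))
    (h4 : 5 / 27 * a2 - 7 / 27 * (a2 * al) - 4 / 27 * (a2 * be)
      ≤ r0 - 3 * u33 + u11 + 3 * (a2 * al))
    {kT tT : ℝ} (hk : kT ≤ a2 / 2 * k) (ht : tT ≤ a2 / 2 * t)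
    (hlt : ∫ q, RQ r0 u00 u33 u03 u11 u12 v0 v3 (dat p (fun x => -n x) (0 : E) q) ∂(μ.prod μ)
      < tT * μ.real univ ^ 2) :
    ∃ (b : OrthonormalBasis (Fin 5) ℝ E) (S : Finset (Fin 5)), S.card = 3 ∧
      kT * (μ.real univ * ∫ x, ‖devA (√2 / 2) b S (p x) (n x)‖ ^ 2 ∂μ)
        ≤ ∫ q, RQ r0 u00 u33 u03 u11 u12 v0 v3 (dat p (fun x => -n x) (0 : E) q)
          ∂(μ.prod μ) := by
  obtain ⟨b, M, P, Q', U, D, Bv, Y, hM, hor', hcmp, hdev⟩ :=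
    dataQ h hE hsp hA hor hal ha2 h1 h2 h3 h4
  set A := μ.real univ with hAd
  set Q := ∫ q, RQ r0 u00 u33 u03 u11 u12 v0 v3 (dat p (fun x => -n x) (0 : E) q) ∂(μ.prod μ)
    with hQd
  have hA2 : 0 < A ^ 2 := by positivity
  rcases hR _ _ _ _ _ _ _ hM hor' with hm | ⟨σ, hm⟩
  · exfalso
    have h5 : tT ≤ a2 / 2 * Fq al be D Bv :=
      ht.trans (mul_le_mul_of_nonneg_left hm (by positivity))
    have h6 := mul_le_mul_of_nonneg_left h5 hA2.le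
    linarith
  · refine ⟨b, Finset.image σ {2, 3, 4}, ?_, ?_⟩
    · rw [Finset.card_image_of_injective _ σ.injective]
      rfl
    · rw [hdev σ]
      have h5 := mul_le_mul_of_nonneg_right hk
        (mul_nonneg hA2.le ((hM.perm σ).Et_nonneg))
      have h6 := mul_le_mul_of_nonneg_left hm (show 0 ≤ a2 / 2 * A ^ 2 by positivity)
      calc kT * (A * (A * Et (fun j => D (σ j)) (fun j => Bv (σ j))))
          = kT * (A ^ 2 * Et (fun j => D (σ j)) (fun j => Bv (σ j))) := by ring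
        _ ≤ a2 / 2 * k * (A ^ 2 * Et (fun j => D (σ j)) (fun j => Bv (σ j))) := h5
        _ = a2 / 2 * A ^ 2 * (k * Et (fun j => D (σ j)) (fun j => Bv (σ j))) := by ring
        _ ≤ a2 / 2 * A ^ 2 * Fq al be D Bv := h6
        _ = a2 / 2 * (A ^ 2 * Fq al be D Bv) := by ring
        _ ≤ Q := hcmp

/-- the resource is nonnegative -/
theorem nonnegQ (h : OneP μ 3 p n) (hE : finrank ℝ E = 3 + 2)
    (hsp : ∀ w, (∀ x, ⟪p x, w⟫ = 0) → w = 0) (hA : 0 < μ.real univ)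
    (hor : 0 ≤ ∫ q : X × X, ⟪p q.1, p q.2⟫ * ⟪p q.1, n q.2⟫ ∂(μ.prod μ))
    {al be a2 t k : ℝ} (hal : 0 ≤ al) (ha2 : 0 < a2) (hR : Res al be t k) (ht : 0 ≤ t)
    (hk : 0 ≤ k)
    {r0 u00 u33 u03 u11 u12 v0 v3 : ℝ} (h1 : u03 + u12 = -a2)
    (h2 : u00 + 16 * u33 - 4 * u11 = 16 * (a2 * al)) (h3 : v0 - 4 * v3 = -(4 * √2 * (a2 * be)))
    (h4 : 5 / 27 * a2 - 7 / 27 * (a2 * al) - 4 / 27 * (a2 * be)
      ≤ r0 - 3 * u33 + u11 + 3 * (a2 * al)) :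
    0 ≤ ∫ q, RQ r0 u00 u33 u03 u11 u12 v0 v3 (dat p (fun x => -n x) (0 : E) q)
          ∂(μ.prod μ) := by
  obtain ⟨b, M, P, Q', U, D, Bv, Y, hM, hor', hcmp, hdev⟩ :=
    dataQ h hE hsp hA hor hal ha2 h1 h2 h3 h4
  refine le_trans ?_ hcmp
  have h5 : 0 ≤ Fq al be D Bv := by
    rcases hR _ _ _ _ _ _ _ hM hor' with hm | ⟨σ, hm⟩
    · exact ht.trans hm
    · exact le_trans (mul_nonneg hk ((hM.perm σ).Et_nonneg)) hm
  positivity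

end

end Vale.Agent.P224.R2.H176
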