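import Vale.Agent.P224.R2.H176.T0.Stab
import Vale.Agent.P224.R2.H470.OneInst
import Vale.Agent.P224.R2.H178.CoreA

/-!
The stable resource in dimension three for minimal immersions.
-/

namespace Vale.Agent.P224.R2.H176

open MeasureTheory Module Function Set Filter Vale.Agent.P224 Vale.Agent.P224.R2.H470
open Vale.Agent.P224.UE Vale.Agent.P224.PO Vale.Agent.P224.R2.H178
open Vale.Agent.P224.SM2 hiding ker
open scoped RealInnerProductSpace Topology ContDiff Manifold ENNReal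

set_option linter.unusedSectionVars false

section

variable {V W M : Type*} [NormedAddCommGroup V] [InnerProductSpace ℝ V] [FiniteDimensional ℝ V]
  [NormedAddCommGroup W] [InnerProductSpace ℝ W] [FiniteDimensional ℝ W]
  [TopologicalSpace M] [ChartedSpace V M]
  [MeasurableSpace V] [BorelSpace V] [MeasurableSpace M] [BorelSpace M]
  [IsManifold 𝓘(ℝ, V) ∞ M] [CompactSpace M] [T2Space M] [ConnectedSpace M]
  [MeasurableSpace W] [BorelSpace W]

/-- **The stable resource in dimension three** for minimal immersions, for every quadratic resource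
which vanishes on the Clifford hypersurface: `al = a₁ / a₂`, `be = a₃ / (√2 a₂)`. -/
theorem stabTN_of_res (hV : finrank ℝ V = 3) (hW : finrank ℝ W = finrank ℝ V + 2) {F : M → W}
    (hF : SphImm V F) (hmin : ∀ x n, IsUnitNormal V F x n → meanCurv V F x n = 0)
    (hng : ¬ ∃ a : W, a ≠ 0 ∧ ∀ x, ⟪F x, a⟫ = 0)
    {al be a2 t k : ℝ} (hal : 0 ≤ al) (ha2 : 0 < a2) (hR : Res al be t k)
    {r0 u00 u33 u03 u11 u12 v0 v3 : ℝ} (h1 : u03 + u12 = -a2)
    (h2 : u00 + 16 * u33 - 4 * u11 = 16 * (a2 * al)) (h3 : v0 - 4 * v3 = -(4 * √2 * (a2 * be)))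
    (h4 : 5 / 27 * a2 - 7 / 27 * (a2 * al) - 4 / 27 * (a2 * be)
      ≤ r0 - 3 * u33 + u11 + 3 * (a2 * al))
    {kT tT : ℝ} (hk : kT ≤ a2 / 2 * k) (ht : tT ≤ a2 / 2 * t) :
    StabTN V 3 3 (√2 / 2) F (RQ r0 u00 u33 u03 u11 u12 v0 v3) kT tT := by
  have hfin : IsFiniteMeasure (volM V F) := isFiniteMeasure_volM hF
  have hne : Nonempty M := inferInstance
  have hA0 : 0 < (volM V F).real univ := by
    rw [measureReal_def]
    exact ENNReal.toReal_pos (volM_pos_of_isOpen hW hF isOpen_univ univ_nonempty).ne'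
      (measure_ne_top _ _)
  intro N hNs hN _ hor hlt
  have hO := oneP_of_min hW hF hmin hNs hN
  rw [hV] at hO
  exact stabQ hO (by omega) (sp_of_hng hng) hA0 hor hal ha2 hR h1 h2 h3 h4 hk ht hlt

/-- nonnegativity of the resource for minimal immersions (the resource is evaluated at the opposite
normal) -/
theorem nonneg_of_res (hV : finrank ℝ V = 3) (hW : finrank ℝ W = finrank ℝ V + 2) {F : M → W}
    (hF : SphImm V F) (hmin : ∀ x n, IsUnitNormal V F x n → meanCurv V F x n = 0)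
    (hng : ¬ ∃ a : W, a ≠ 0 ∧ ∀ x, ⟪F x, a⟫ = 0)
    {al be a2 t k : ℝ} (hal : 0 ≤ al) (ha2 : 0 < a2) (hR : Res al be t k) (ht : 0 ≤ t)
    (hk : 0 ≤ k)
    {r0 u00 u33 u03 u11 u12 v0 v3 : ℝ} (h1 : u03 + u12 = -a2)
    (h2 : u00 + 16 * u33 - 4 * u11 = 16 * (a2 * al)) (h3 : v0 - 4 * v3 = -(4 * √2 * (a2 * be)))
    (h4 : 5 / 27 * a2 - 7 / 27 * (a2 * al) - 4 / 27 * (a2 * be)
      ≤ r0 - 3 * u33 + u11 + 3 * (a2 * al))
    {N : M → W} (hNs : ContMDiff 𝓘(ℝ, V) 𝓘(ℝ, W) ∞ N) (hN : ∀ x, IsUnitNormal V F x (N x))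
    (hor : 0 ≤ ∫ q : M × M, ⟪F q.1, F q.2⟫ * ⟪F q.1, N q.2⟫
      ∂((volM V F).prod (volM V F))) :
    0 ≤ ∫ q, RQ r0 u00 u33 u03 u11 u12 v0 v3 (dat F (fun x => -N x) 0 q)
      ∂((volM V F).prod (volM V F)) := by
  have hfin : IsFiniteMeasure (volM V F) := isFiniteMeasure_volM hF
  have hne : Nonempty M := inferInstance
  have hA0 : 0 < (volM V F).real univ := by
    rw [measureReal_def]
    exact ENNReal.toReal_pos (volM_pos_of_isOpen hW hF isOpen_univ univ_nonempty).ne'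
      (measure_ne_top _ _)
  have hO := oneP_of_min hW hF hmin hNs hN
  rw [hV] at hO
  exact nonnegQ hO (by omega) (sp_of_hng hng) hA0 hor hal ha2 hR ht hk h1 h2 h3 h4

end

end Vale.Agent.P224.R2.H176
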